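import Vale.Agent.Lib.P154.PChain.BM.R8_0

set_option linter.all false

namespace Vale.Agent.Lib.P154.PChain.BM.S8

open Vale.Agent.Lib.P154.Chain

set_option maxRecDepth 10000000 in
def run_ok8 : runP g l4 (vPacked vl) wp Tp Tx Te Tz 2 rc7 = rc8 := by
  decide +kernel

set_option maxRecDepth 10000000 in
def run_ok9 : runP g l4 (vPacked vl) wp Tp Tx Te Tz 2 rc8 = rc9 := by
  decide +kernel

set_option maxRecDepth 10000000 in
def run_ok10 : runP g l4 (vPacked vl) wp Tp Tx Te Tz 2 rc9 = rc10 := by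
  decide +kernel

set_option maxRecDepth 10000000 in
def run_ok11 : runP g l4 (vPacked vl) wp Tp Tx Te Tz 2 rc10 = rc11 := by
  decide +kernel

set_option maxRecDepth 10000000 in
def run_ok12 : runP g l4 (vPacked vl) wp Tp Tx Te Tz 2 rc11 = rc12 := by
  decide +kernel

set_option maxRecDepth 10000000 in
def run_ok13 : runP g l4 (vPacked vl) wp Tp Tx Te Tz 2 rc12 = rc13 := by
  decide +kernel

set_option maxRecDepth 10000000 in
def run_ok14 : runP g l4 (vPacked vl) wp Tp Tx Te Tz 2 rc13 = rc14 := by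
  decide +kernel

end Vale.Agent.Lib.P154.PChain.BM.S8
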